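import Vale.Agent.Lib.P369.H28.Bounds

/-!
# P369 (helper28): the entropy power inequality gives the entropy photon-number
inequality up to a small additive error

Write `g t = (t + 1) * log (t + 1) - t * log t` for `t ≥ 0`.  Let `a, b, c ≥ 0` be the
entropy photon numbers of the two inputs and of the output, so that the entropies per
mode are `g a`, `g b`, `g c`.  If the entropy power inequality
`η * exp (g a) + (1 - η) * exp (g b) ≤ exp (g c)` holds, then

* `η * a + (1 - η) * b - (1 / 2 - exp (-1)) ≤ c`, and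
* `η * a + (1 - η) * b - 1 / (8 * m) ≤ c` whenever `0 < m ≤ min a b`.
-/

namespace Vale.Agent.Results.P369.H28_AdditiveConstant

open Vale.Agent.Lib.P369.H28

theorem result (η a b c : ℝ) (hη0 : 0 ≤ η) (hη1 : η ≤ 1) (ha : 0 ≤ a) (hb : 0 ≤ b)
    (hc : 0 ≤ c)
    (hEPI : η * Real.exp ((a + 1) * Real.log (a + 1) - a * Real.log a)
        + (1 - η) * Real.exp ((b + 1) * Real.log (b + 1) - b * Real.log b)
        ≤ Real.exp ((c + 1) * Real.log (c + 1) - c * Real.log c)) :
    η * a + (1 - η) * b - (1 / 2 - Real.exp (-1)) ≤ c ∧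
    ∀ m : ℝ, 0 < m → m ≤ a → m ≤ b → η * a + (1 - η) * b - 1 / (8 * m) ≤ c := by
  have hC := exp_gfun_le hc
  have hEPI' : η * Real.exp (gfun a) + (1 - η) * Real.exp (gfun b) ≤ Real.exp (gfun c) := hEPI
  have he : 0 < Real.exp 1 := Real.exp_pos 1
  have hinv : Real.exp (-1) * Real.exp 1 = 1 := by
    rw [← Real.exp_add]; simp
  have hpos : 0 < Real.exp (-1) := Real.exp_pos _
  have h6 : Real.exp (-1) * (Real.exp 1 * (c + 1 / 2)) = c + 1 / 2 := by
    rw [← mul_assoc, hinv]; ring
  constructor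
  · have hA := le_exp_gfun ha
    have hB := le_exp_gfun hb
    have h1 : η * (Real.exp 1 * a + 1) ≤ η * Real.exp (gfun a) :=
      mul_le_mul_of_nonneg_left hA hη0
    have h2 : (1 - η) * (Real.exp 1 * b + 1) ≤ (1 - η) * Real.exp (gfun b) :=
      mul_le_mul_of_nonneg_left hB (by linarith)
    have h3 : Real.exp 1 * (η * a + (1 - η) * b) + 1 ≤ Real.exp 1 * (c + 1 / 2) := by
      nlinarith
    have h4 : Real.exp (-1) * (Real.exp 1 * (η * a + (1 - η) * b) + 1)
        ≤ Real.exp (-1) * (Real.exp 1 * (c + 1 / 2)) :=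
      mul_le_mul_of_nonneg_left h3 hpos.le
    have h5 : Real.exp (-1) * (Real.exp 1 * (η * a + (1 - η) * b) + 1)
        = (η * a + (1 - η) * b) + Real.exp (-1) := by
      rw [mul_add, ← mul_assoc, hinv]; ring
    rw [h5, h6] at h4
    linarith
  · intro m hm hma hmb
    have ha' : 0 < a := lt_of_lt_of_le hm hma
    have hb' : 0 < b := lt_of_lt_of_le hm hmb
    have hA := le_exp_gfun_refined ha'
    have hB := le_exp_gfun_refined hb'
    have hma' : 1 / (8 * a) ≤ 1 / (8 * m) :=
      one_div_le_one_div_of_le (by positivity) (by linarith)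
    have hmb' : 1 / (8 * b) ≤ 1 / (8 * m) :=
      one_div_le_one_div_of_le (by positivity) (by linarith)
    have hA2 : Real.exp 1 * (a + 1 / 2 - 1 / (8 * m)) ≤ Real.exp (gfun a) :=
      le_trans (mul_le_mul_of_nonneg_left (by linarith) he.le) hA
    have hB2 : Real.exp 1 * (b + 1 / 2 - 1 / (8 * m)) ≤ Real.exp (gfun b) :=
      le_trans (mul_le_mul_of_nonneg_left (by linarith) he.le) hB
    have h1 : η * (Real.exp 1 * (a + 1 / 2 - 1 / (8 * m))) ≤ η * Real.exp (gfun a) :=
      mul_le_mul_of_nonneg_left hA2 hη0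
    have h2 : (1 - η) * (Real.exp 1 * (b + 1 / 2 - 1 / (8 * m)))
        ≤ (1 - η) * Real.exp (gfun b) :=
      mul_le_mul_of_nonneg_left hB2 (by linarith)
    have h3 : Real.exp 1 * (η * a + (1 - η) * b + 1 / 2 - 1 / (8 * m))
        ≤ Real.exp 1 * (c + 1 / 2) := by
      nlinarith
    have h4 : Real.exp (-1) * (Real.exp 1 * (η * a + (1 - η) * b + 1 / 2 - 1 / (8 * m)))
        ≤ Real.exp (-1) * (Real.exp 1 * (c + 1 / 2)) :=
      mul_le_mul_of_nonneg_left h3 hpos.le
    have h5 : Real.exp (-1) * (Real.exp 1 * (η * a + (1 - η) * b + 1 / 2 - 1 / (8 * m)))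
        = η * a + (1 - η) * b + 1 / 2 - 1 / (8 * m) := by
      rw [← mul_assoc, hinv]; ring
    rw [h5, h6] at h4
    linarith

end Vale.Agent.Results.P369.H28_AdditiveConstant
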