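import Vale.Agent.Lib.P369.H28.Bounds

/-!
# P369 (helper28): weighted error terms for the photon-number inequality derived from the
entropy power inequality, and sharpness of the constant

Write `g t = (t + 1) * log (t + 1) - t * log t` for `t ≥ 0`, and let `a, b, c ≥ 0` satisfy the
entropy power inequality `η * exp (g a) + (1 - η) * exp (g b) ≤ exp (g c)`.  Then

* `η * a + (1 - η) * b - (η * E a + (1 - η) * E b) ≤ c`, where each of `E a`, `E b` may be
  taken to be the constant `1 / 2 - exp (-1)` or, for a positive argument `t`, `1 / (8 * t)`;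
* the constant `1 / 2 - exp (-1)` cannot be lowered: for every `δ < 1 / 2 - exp (-1)` there
  are admissible `η, a, b, c` with `c < η * a + (1 - η) * b - δ`.
-/

namespace Vale.Agent.Results.P369.H28_WeightedErrorSharp

open Vale.Agent.Lib.P369.H28

/-- the lower bound `exp 1 * t + 1 ≤ exp (g t)` written with the error constant -/
theorem crude_lower {t : ℝ} (ht : 0 ≤ t) :
    Real.exp 1 * (t + 1 / 2 - (1 / 2 - Real.exp (-1))) ≤ Real.exp (gfun t) := by
  have h := le_exp_gfun ht
  have hinv : Real.exp 1 * Real.exp (-1) = 1 := by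
    rw [← Real.exp_add]; simp
  have e1 : Real.exp 1 * (t + 1 / 2 - (1 / 2 - Real.exp (-1)))
      = Real.exp 1 * t + Real.exp 1 * Real.exp (-1) := by ring
  rw [e1, hinv]
  exact h

/-- the general step: lower bounds for `exp (g a)`, `exp (g b)` with error terms `ea`, `eb`
give the photon-number inequality with error `η * ea + (1 - η) * eb` -/
theorem key (η a b c ea eb : ℝ) (hη0 : 0 ≤ η) (hη1 : η ≤ 1) (hc : 0 ≤ c)
    (hA : Real.exp 1 * (a + 1 / 2 - ea) ≤ Real.exp (gfun a))
    (hB : Real.exp 1 * (b + 1 / 2 - eb) ≤ Real.exp (gfun b))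
    (hEPI : η * Real.exp (gfun a) + (1 - η) * Real.exp (gfun b) ≤ Real.exp (gfun c)) :
    η * a + (1 - η) * b - (η * ea + (1 - η) * eb) ≤ c := by
  have hC := exp_gfun_le hc
  have he : 0 < Real.exp 1 := Real.exp_pos 1
  have h1 : η * (Real.exp 1 * (a + 1 / 2 - ea)) ≤ η * Real.exp (gfun a) :=
    mul_le_mul_of_nonneg_left hA hη0
  have h2 : (1 - η) * (Real.exp 1 * (b + 1 / 2 - eb)) ≤ (1 - η) * Real.exp (gfun b) :=
    mul_le_mul_of_nonneg_left hB (by linarith)
  have h3 : Real.exp 1 * (η * (a + 1 / 2 - ea) + (1 - η) * (b + 1 / 2 - eb))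
      ≤ Real.exp 1 * (c + 1 / 2) := by
    have e3 : Real.exp 1 * (η * (a + 1 / 2 - ea) + (1 - η) * (b + 1 / 2 - eb))
        = η * (Real.exp 1 * (a + 1 / 2 - ea)) + (1 - η) * (Real.exp 1 * (b + 1 / 2 - eb)) := by
      ring
    rw [e3]
    linarith
  have h4 := le_of_mul_le_mul_left h3 he
  linarith

theorem result :
    (∀ η a b c : ℝ, 0 ≤ η → η ≤ 1 → 0 ≤ a → 0 ≤ b → 0 ≤ c →
      η * Real.exp ((a + 1) * Real.log (a + 1) - a * Real.log a)
          + (1 - η) * Real.exp ((b + 1) * Real.log (b + 1) - b * Real.log b)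
        ≤ Real.exp ((c + 1) * Real.log (c + 1) - c * Real.log c) →
      (η * a + (1 - η) * b
          - (η * (1 / 2 - Real.exp (-1)) + (1 - η) * (1 / 2 - Real.exp (-1))) ≤ c) ∧
      (0 < b → η * a + (1 - η) * b
          - (η * (1 / 2 - Real.exp (-1)) + (1 - η) * (1 / (8 * b))) ≤ c) ∧
      (0 < a → η * a + (1 - η) * b
          - (η * (1 / (8 * a)) + (1 - η) * (1 / 2 - Real.exp (-1))) ≤ c) ∧
      (0 < a → 0 < b → η * a + (1 - η) * b
          - (η * (1 / (8 * a)) + (1 - η) * (1 / (8 * b))) ≤ c)) ∧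
    (∀ δ : ℝ, δ < 1 / 2 - Real.exp (-1) →
      ∃ η a b c : ℝ, 0 ≤ η ∧ η ≤ 1 ∧ 0 ≤ a ∧ 0 ≤ b ∧ 0 ≤ c ∧
        η * Real.exp ((a + 1) * Real.log (a + 1) - a * Real.log a)
            + (1 - η) * Real.exp ((b + 1) * Real.log (b + 1) - b * Real.log b)
          ≤ Real.exp ((c + 1) * Real.log (c + 1) - c * Real.log c) ∧
        c < η * a + (1 - η) * b - δ) := by
  constructor
  · intro η a b c hη0 hη1 ha hb hc hEPI
    have hEPI' : η * Real.exp (gfun a) + (1 - η) * Real.exp (gfun b) ≤ Real.exp (gfun c) :=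
      hEPI
    refine ⟨?_, ?_, ?_, ?_⟩
    · exact key η a b c _ _ hη0 hη1 hc (crude_lower ha) (crude_lower hb) hEPI'
    · intro hb'
      exact key η a b c _ _ hη0 hη1 hc (crude_lower ha) (le_exp_gfun_refined hb') hEPI'
    · intro ha'
      exact key η a b c _ _ hη0 hη1 hc (le_exp_gfun_refined ha') (crude_lower hb) hEPI'
    · intro ha' hb'
      exact key η a b c _ _ hη0 hη1 hc (le_exp_gfun_refined ha') (le_exp_gfun_refined hb')
        hEPI'
  · intro δ hδ
    -- constants
    have he2 : (2 : ℝ) < Real.exp 1 := by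
      have := Real.exp_one_gt_d9
      linarith
    have he : 0 < Real.exp 1 := by linarith
    have hinv : Real.exp 1 * Real.exp (-1) = 1 := by
      rw [← Real.exp_add]; simp
    have hipos : 0 < Real.exp (-1) := Real.exp_pos _
    have hihalf : Real.exp (-1) < 1 / 2 := by nlinarith
    -- the gap
    have hgap_pos : 0 < 1 / 2 - Real.exp (-1) - max δ 0 := by
      rcases le_total δ 0 with h | h
      · rw [max_eq_right h]; linarith
      · rw [max_eq_left h]; linarith
    have hgap_lt : 1 / 2 - Real.exp (-1) - max δ 0 < 1 / 2 := by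
      have := le_max_right δ 0
      linarith
    set gap : ℝ := 1 / 2 - Real.exp (-1) - max δ 0 with hgap
    have hδgap : δ ≤ 1 / 2 - Real.exp (-1) - gap := by
      have := le_max_left δ 0
      rw [hgap]; linarith
    set C : ℝ := 1 / gap with hCdef
    have hCpos : 0 < C := by rw [hCdef]; positivity
    have hC2 : 2 < C := by
      rw [hCdef, lt_div_iff₀ hgap_pos]; linarith
    have hCgap : C * gap = 1 := by
      rw [hCdef]; field_simp
    have h8C : 1 / (8 * C) = gap / 8 := by
      rw [hCdef]; field_simp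
    set T : ℝ := Real.exp 1 * (C + 1 / 2 - 1 / (8 * C)) with hT
    set b : ℝ := (T - (1 - gap)) / (gap * Real.exp 1) - 1 / 2 with hbdef
    have hge : 0 < gap * Real.exp 1 := by positivity
    have hbid : gap * Real.exp 1 * (b + 1 / 2) = T - (1 - gap) := by
      rw [hbdef]; field_simp; ring
    -- T - (1 - gap) is large
    have hTbig : gap * Real.exp 1 * (1 / 2) ≤ T - (1 - gap) := by
      rw [hT, h8C]
      nlinarith
    have hb0 : 0 ≤ b := by
      have : gap * Real.exp 1 * (1 / 2) ≤ gap * Real.exp 1 * (b + 1 / 2) := by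
        rw [hbid]; exact hTbig
      have := le_of_mul_le_mul_left this hge
      linarith
    refine ⟨1 - gap, 0, b, C, by linarith, by linarith, le_refl 0, hb0, hCpos.le, ?_, ?_⟩
    · -- the entropy power inequality holds for these numbers
      have hg0 : Real.exp (((0 : ℝ) + 1) * Real.log ((0 : ℝ) + 1) - (0 : ℝ) * Real.log (0 : ℝ))
          = 1 := by simp
      rw [hg0]
      have hB := exp_gfun_le hb0
      have hCl := le_exp_gfun_refined hCpos
      have hB' : Real.exp ((b + 1) * Real.log (b + 1) - b * Real.log b)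
          ≤ Real.exp 1 * (b + 1 / 2) := hB
      have hCl' : T ≤ Real.exp ((C + 1) * Real.log (C + 1) - C * Real.log C) := hCl
      have h1 : (1 - (1 - gap)) * Real.exp ((b + 1) * Real.log (b + 1) - b * Real.log b)
          ≤ gap * (Real.exp 1 * (b + 1 / 2)) := by
        have : (1 - (1 - gap)) = gap := by ring
        rw [this]
        exact mul_le_mul_of_nonneg_left hB' hgap_pos.le
      have h2 : gap * (Real.exp 1 * (b + 1 / 2)) = T - (1 - gap) := by
        rw [← hbid]; ring
      linarith
    · -- the deficit exceeds δ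
      have h3 : Real.exp 1 * (gap * b) = T - (1 - gap) - gap * Real.exp 1 * (1 / 2) := by
        have := hbid
        linarith [this]
      have h4 : Real.exp 1 * C < Real.exp 1 * ((1 - gap) * 0 + (1 - (1 - gap)) * b - δ) := by
        have e4 : Real.exp 1 * ((1 - gap) * 0 + (1 - (1 - gap)) * b - δ)
            = Real.exp 1 * (gap * b) - Real.exp 1 * δ := by ring
        rw [e4, h3, hT, h8C]
        -- remaining: numeric inequality in gap, δ, exp 1, exp (-1)
        have hδ' : Real.exp 1 * δ ≤ Real.exp 1 * (1 / 2 - Real.exp (-1) - gap) :=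
          mul_le_mul_of_nonneg_left hδgap he.le
        have e5 : Real.exp 1 * (1 / 2 - Real.exp (-1) - gap)
            = Real.exp 1 * (1 / 2) - 1 - Real.exp 1 * gap := by
          have : Real.exp 1 * (1 / 2 - Real.exp (-1) - gap)
              = Real.exp 1 * (1 / 2) - Real.exp 1 * Real.exp (-1) - Real.exp 1 * gap := by ring
          rw [this, hinv]
        rw [e5] at hδ'
        nlinarith
      exact lt_of_mul_lt_mul_left h4 he.le

end Vale.Agent.Results.P369.H28_WeightedErrorSharp
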